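import Mathlib

/-! P084 (Tingley): inner product spaces have the Mazur-Ulam property.  Basic definitions. -/

namespace Vale.Agent.Lib.P084

/-- `g` maps the unit vectors of `X` isometrically onto the unit vectors of `Y`
(values of `g` off the unit sphere are irrelevant). -/
structure SphereIso {X Y : Type*} [NormedAddCommGroup X] [NormedAddCommGroup Y]
    (g : X → Y) : Prop where
  norm_one : ∀ x, ‖x‖ = 1 → ‖g x‖ = 1
  dist_eq : ∀ x y, ‖x‖ = 1 → ‖y‖ = 1 → ‖g x - g y‖ = ‖x - y‖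
  surj : ∀ w : Y, ‖w‖ = 1 → ∃ x, ‖x‖ = 1 ∧ g x = w

/-- the rhombus law for unit vectors -/
def Rhombus (Y : Type*) [NormedAddCommGroup Y] : Prop :=
  ∀ p q : Y, ‖p‖ = 1 → ‖q‖ = 1 → ‖p + q‖ ^ 2 + ‖p - q‖ ^ 2 = 4

/-- the point at angle `θ` of the formal circle spanned by `u`, `v` -/
noncomputable def ray {Y : Type*} [NormedAddCommGroup Y] [NormedSpace ℝ Y] (u v : Y) (θ : ℝ) : Y :=
  Real.cos θ • u + Real.sin θ • v

end Vale.Agent.Lib.P084
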