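import Mathlib
import Vale.Agent.Lib.P084.Basic

/-! M1.  ROUTE.  neg: -g x is a unit vector, so it is g z with z a unit vector;
‖z - x‖ = ‖g z - g x‖ = ‖-2 g x‖ = 2, so ‖z - x‖^2 = 2 - 2<z,x> = 4, <z,x> = -1,
‖z + x‖^2 = 2 + 2<z,x> = 0, z = -x.  norm_add: g x + g y = g x - g (-y).
rhombus: p = g x, q = g y and the parallelogram law in X. -/

namespace Vale.Agent.Lib.P084

variable {X Y : Type*} [NormedAddCommGroup X] [InnerProductSpace ℝ X]
  [NormedAddCommGroup Y] [NormedSpace ℝ Y] {g : X → Y}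

theorem SphereIso.neg (h : SphereIso g) {x : X} (hx : ‖x‖ = 1) : g (-x) = - g x := by
  have hgx : ‖g x‖ = 1 := h.norm_one x hx
  obtain ⟨z, hz, hgz⟩ := h.surj (- g x) (by rw [norm_neg]; exact hgx)
  have h1 : ‖z - x‖ = 2 := by
    rw [← h.dist_eq z x hz hx, hgz]
    have : - g x - g x = (-2 : ℝ) • g x := by
      rw [neg_smul, two_smul]; abel
    rw [this, norm_smul, hgx]
    norm_num
  have h2 := norm_sub_sq_real z x
  have h3 := norm_add_sq_real z x
  rw [h1, hz, hx] at h2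
  rw [hz, hx] at h3
  have h4 : ‖z + x‖ ^ 2 = 0 := by linarith
  have h5 : z + x = 0 := by
    have : ‖z + x‖ = 0 := by simpa using h4
    exact norm_eq_zero.mp this
  have h6 : z = -x := eq_neg_of_add_eq_zero_left h5
  rw [← h6, hgz]

theorem SphereIso.norm_add (h : SphereIso g) {x y : X} (hx : ‖x‖ = 1) (hy : ‖y‖ = 1) :
    ‖g x + g y‖ = ‖x + y‖ := by
  have hy' : ‖-y‖ = 1 := by rw [norm_neg]; exact hy
  have h1 := h.dist_eq x (-y) hx hy'
  rw [h.neg hy, sub_neg_eq_add, sub_neg_eq_add] at h1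
  exact h1

theorem SphereIso.rhombus (h : SphereIso g) : Rhombus Y := by
  intro p q hp hq
  obtain ⟨x, hx, rfl⟩ := h.surj p hp
  obtain ⟨y, hy, rfl⟩ := h.surj q hq
  rw [h.norm_add hx hy, h.dist_eq x y hx hy]
  have := parallelogram_law_with_norm ℝ x y
  rw [hx, hy] at this
  nlinarith

end Vale.Agent.Lib.P084
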