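import Mathlib

/-! M3.  ROUTE.  Let t in [a,b], t not in S.  α = sSup (S ∩ Icc a t), β = sInf (S ∩ Icc t b) lie
in S (closed, bounded, nonempty), α < t < β, and the midpoint of α, β is in S; it is either
<= t (then <= α, absurd) or >= t (then >= β, absurd). -/

namespace Vale.Agent.Lib.P084

theorem closed_midpoint_Icc (S : Set ℝ) (hS : IsClosed S) (a b : ℝ) (hab : a ≤ b)
    (ha : a ∈ S) (hb : b ∈ S)
    (hmid : ∀ x ∈ S, ∀ y ∈ S, a ≤ x → x ≤ y → y ≤ b → (x + y) / 2 ∈ S) :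
    Set.Icc a b ⊆ S := by
  intro t ht
  by_contra htS
  have hAc : IsClosed (S ∩ Set.Icc a t) := hS.inter isClosed_Icc
  have hBc : IsClosed (S ∩ Set.Icc t b) := hS.inter isClosed_Icc
  have hAne : (S ∩ Set.Icc a t).Nonempty := ⟨a, ha, le_refl _, ht.1⟩
  have hBne : (S ∩ Set.Icc t b).Nonempty := ⟨b, hb, ht.2, le_refl _⟩
  have hAb : BddAbove (S ∩ Set.Icc a t) := ⟨t, fun x hx => hx.2.2⟩
  have hBb : BddBelow (S ∩ Set.Icc t b) := ⟨t, fun x hx => hx.2.1⟩
  have hα := hAc.csSup_mem hAne hAb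
  have hβ := hBc.csInf_mem hBne hBb
  set α := sSup (S ∩ Set.Icc a t) with hαdef
  set β := sInf (S ∩ Set.Icc t b) with hβdef
  have hαt : α < t := lt_of_le_of_ne hα.2.2 (fun h => htS (h ▸ hα.1))
  have htβ : t < β := lt_of_le_of_ne hβ.2.1 (fun h => htS (h ▸ hβ.1))
  have hm : (α + β) / 2 ∈ S :=
    hmid α hα.1 β hβ.1 hα.2.1 (le_of_lt (hαt.trans htβ)) hβ.2.2
  rcases le_total ((α + β) / 2) t with h | h
  · have hle : (α + β) / 2 ≤ α := le_csSup hAb ⟨hm, by have := hα.2.1; constructor <;> linarith⟩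
    linarith
  · have hle : β ≤ (α + β) / 2 := csInf_le hBb ⟨hm, by have := hβ.2.2; constructor <;> linarith⟩
    linarith

end Vale.Agent.Lib.P084
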