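import Mathlib
import Vale.Agent.Lib.P084.Basic

/-! M2.  ROUTE.  Put e θ = ray u v θ.  Addition formulas give
e (m+φ) + e (m-φ) = (2 cos φ) • e m,  e (m+φ) - e (m-φ) = (2 sin φ) • e (m+π/2),
e (m+π) = - e m.  The rhombus law for the pair e (m+φ), e (m-φ) gives
cos^2 φ * A + sin^2 φ * B = 1 with A = ‖e m‖^2, B = ‖e (m+π/2)‖^2; for the pair
e (m+φ+π/2), e (m-φ+π/2) it gives cos^2 φ * B + sin^2 φ * A = 1.  Subtract:
(cos^2 φ - sin^2 φ) (A - B) = 0 and cos^2 φ - sin^2 φ = cos (2 φ) > 0 as |φ| < π/4.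
So A = B, hence A = B = 1. -/

namespace Vale.Agent.Lib.P084

variable {Y : Type*} [NormedAddCommGroup Y] [NormedSpace ℝ Y]

theorem ray_add_ray (u v : Y) (m φ : ℝ) :
    ray u v (m + φ) + ray u v (m - φ) = (2 * Real.cos φ) • ray u v m := by
  unfold ray
  rw [Real.cos_add, Real.cos_sub, Real.sin_add, Real.sin_sub]
  module

theorem ray_sub_ray (u v : Y) (m φ : ℝ) :
    ray u v (m + φ) - ray u v (m - φ) = (2 * Real.sin φ) • ray u v (m + Real.pi / 2) := by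
  unfold ray
  rw [Real.cos_add, Real.cos_sub, Real.sin_add, Real.sin_sub, Real.cos_add_pi_div_two,
    Real.sin_add_pi_div_two]
  module

theorem ray_add_pi (u v : Y) (m : ℝ) : ray u v (m + Real.pi) = - ray u v m := by
  unfold ray
  rw [Real.cos_add_pi, Real.sin_add_pi]
  module

theorem mid_step (hR : Rhombus Y) (u v : Y) (m φ : ℝ) (hφ : |φ| < Real.pi / 4)
    (h1 : ‖ray u v (m + φ)‖ = 1) (h2 : ‖ray u v (m - φ)‖ = 1)
    (h3 : ‖ray u v (m + φ + Real.pi / 2)‖ = 1) (h4 : ‖ray u v (m - φ + Real.pi / 2)‖ = 1) :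
    ‖ray u v m‖ = 1 ∧ ‖ray u v (m + Real.pi / 2)‖ = 1 := by
  have e1 := hR _ _ h1 h2
  rw [ray_add_ray, ray_sub_ray, norm_smul, norm_smul, mul_pow, mul_pow] at e1
  have h3' : ‖ray u v (m + Real.pi / 2 + φ)‖ = 1 := by
    rw [show m + Real.pi / 2 + φ = m + φ + Real.pi / 2 by ring]; exact h3
  have h4' : ‖ray u v (m + Real.pi / 2 - φ)‖ = 1 := by
    rw [show m + Real.pi / 2 - φ = m - φ + Real.pi / 2 by ring]; exact h4
  have e2 := hR _ _ h3' h4'
  rw [ray_add_ray, ray_sub_ray, norm_smul, norm_smul, mul_pow, mul_pow,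
    show m + Real.pi / 2 + Real.pi / 2 = m + Real.pi by ring, ray_add_pi, norm_neg] at e2
  simp only [Real.norm_eq_abs, sq_abs] at e1 e2
  set A := ‖ray u v m‖ with hA
  set B := ‖ray u v (m + Real.pi / 2)‖ with hB
  have hA0 : 0 ≤ A := norm_nonneg _
  have hB0 : 0 ≤ B := norm_nonneg _
  have hcs := Real.sin_sq_add_cos_sq φ
  have hcos : 0 < Real.cos (2 * φ) := by
    apply Real.cos_pos_of_mem_Ioo
    rw [abs_lt] at hφ
    constructor <;> linarith [hφ.1, hφ.2]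
  rw [Real.cos_two_mul] at hcos
  set c := Real.cos φ with hc
  set s := Real.sin φ with hs
  have hs2 : s ^ 2 = 1 - c ^ 2 := by linarith
  have e1' : c ^ 2 * A ^ 2 + (1 - c ^ 2) * B ^ 2 = 1 := by
    have : (2 * c) ^ 2 * A ^ 2 + (2 * s) ^ 2 * B ^ 2 = 4 := e1
    nlinarith
  have e2' : c ^ 2 * B ^ 2 + (1 - c ^ 2) * A ^ 2 = 1 := by
    have : (2 * c) ^ 2 * B ^ 2 + (2 * s) ^ 2 * A ^ 2 = 4 := e2
    nlinarith
  have hAB : A ^ 2 = B ^ 2 := by
    have : (2 * c ^ 2 - 1) * (A ^ 2 - B ^ 2) = 0 := by linarith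
    rcases mul_eq_zero.mp this with h | h
    · linarith
    · linarith
  have hA1 : A ^ 2 = 1 := by
    rw [← hAB] at e1'
    linarith
  have hB1 : B ^ 2 = 1 := by rw [← hAB]; exact hA1
  constructor
  · nlinarith
  · nlinarith

end Vale.Agent.Lib.P084
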