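import Mathlib
import Vale.Agent.Lib.P084.Basic
import Vale.Agent.Lib.P084.MidStep
import Vale.Agent.Lib.P084.Gap

/-! M4a.  ROUTE.  S = {θ | ‖ray u v θ‖ = 1 ∧ ‖ray u v (θ + π/2)‖ = 1} is closed (continuity).
0, π/4, π/2 are in S: ray 0 = u, ray (π/2) = v, ray π = -u, ray (π/4) = (√2/2) • (u+v),
ray (3π/4) = (√2/2) • (v-u).  If x <= y are in S and y - x <= π/4 then (x+y)/2 is in S by
mid_step with m = (x+y)/2, φ = (y-x)/2 <= π/8.  Apply closed_midpoint_Icc on [0,π/4] and on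
[π/4,π/2]. -/

namespace Vale.Agent.Lib.P084

variable {Y : Type*} [NormedAddCommGroup Y] [NormedSpace ℝ Y]

theorem norm_ray_quadrant (hR : Rhombus Y) (u v : Y) (hu : ‖u‖ = 1) (hv : ‖v‖ = 1)
    (h1 : ‖u + v‖ ^ 2 = 2) (h2 : ‖u - v‖ ^ 2 = 2) :
    ∀ θ ∈ Set.Icc (0 : ℝ) (Real.pi / 2), ‖ray u v θ‖ = 1 := by
  have hpi := Real.pi_pos
  set S : Set ℝ := {θ | ‖ray u v θ‖ = 1 ∧ ‖ray u v (θ + Real.pi / 2)‖ = 1} with hS
  have hc1 : Continuous fun θ : ℝ => ‖ray u v θ‖ := by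
    unfold ray; fun_prop
  have hc2 : Continuous fun θ : ℝ => ‖ray u v (θ + Real.pi / 2)‖ := by
    unfold ray; fun_prop
  have hclosed : IsClosed S :=
    (isClosed_eq hc1 continuous_const).inter (isClosed_eq hc2 continuous_const)
  have hshift : ∀ θ, ray u v (θ + Real.pi / 2) = (-Real.sin θ) • u + Real.cos θ • v := by
    intro θ
    unfold ray
    rw [Real.cos_add_pi_div_two, Real.sin_add_pi_div_two]
  have hsq : Real.sqrt 2 / 2 * Real.sqrt 2 = 1 := by
    have := Real.mul_self_sqrt (show (0 : ℝ) ≤ 2 by norm_num)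
    linarith
  have hn1 : ‖u + v‖ = Real.sqrt 2 := by
    rw [← h1, Real.sqrt_sq (norm_nonneg _)]
  have hn2 : ‖u - v‖ = Real.sqrt 2 := by
    rw [← h2, Real.sqrt_sq (norm_nonneg _)]
  have hpos : (0 : ℝ) ≤ Real.sqrt 2 / 2 := by positivity
  have m0 : (0 : ℝ) ∈ S := by
    refine ⟨?_, ?_⟩
    · unfold ray; simp [hu]
    · rw [hshift]; simp [hv]
  have m2 : Real.pi / 2 ∈ S := by
    refine ⟨?_, ?_⟩
    · unfold ray; simp [hv]
    · rw [hshift]; simp [hu]
  have m1 : Real.pi / 4 ∈ S := by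
    refine ⟨?_, ?_⟩
    · unfold ray
      rw [Real.cos_pi_div_four, Real.sin_pi_div_four, ← smul_add, norm_smul, hn1,
        Real.norm_of_nonneg hpos]
      exact hsq
    · rw [hshift, Real.cos_pi_div_four, Real.sin_pi_div_four]
      have : (-(Real.sqrt 2 / 2)) • u + (Real.sqrt 2 / 2) • v = (-(Real.sqrt 2 / 2)) • (u - v) := by
        rw [smul_sub, neg_smul, neg_smul]; abel
      rw [this, norm_smul, hn2, norm_neg, Real.norm_of_nonneg hpos]
      exact hsq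
  have hmid : ∀ x ∈ S, ∀ y ∈ S, x ≤ y → y - x ≤ Real.pi / 4 → (x + y) / 2 ∈ S := by
    intro x hx y hy hxy hd
    have e1 : (x + y) / 2 + (y - x) / 2 = y := by ring
    have e2 : (x + y) / 2 - (y - x) / 2 = x := by ring
    refine mid_step hR u v ((x + y) / 2) ((y - x) / 2) ?_ ?_ ?_ ?_ ?_
    · rw [abs_of_nonneg (by linarith)]; linarith
    · rw [e1]; exact hy.1
    · rw [e2]; exact hx.1
    · rw [e1]; exact hy.2
    · rw [e2]; exact hx.2
  have hA : Set.Icc 0 (Real.pi / 4) ⊆ S :=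
    closed_midpoint_Icc S hclosed 0 (Real.pi / 4) (by linarith) m0 m1
      (fun x hx y hy h0 hxy hyb => hmid x hx y hy hxy (by linarith))
  have hB : Set.Icc (Real.pi / 4) (Real.pi / 2) ⊆ S :=
    closed_midpoint_Icc S hclosed (Real.pi / 4) (Real.pi / 2) (by linarith) m1 m2
      (fun x hx y hy h0 hxy hyb => hmid x hx y hy hxy (by linarith))
  intro θ hθ
  rcases le_total θ (Real.pi / 4) with h | h
  · exact (hA ⟨hθ.1, h⟩).1
  · exact (hB ⟨h, hθ.2⟩).1

end Vale.Agent.Lib.P084
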