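import Mathlib
import Vale.Agent.Lib.P084.Basic
import Vale.Agent.Lib.P084.Quadrant

/-! M4b.  ROUTE.  nonneg: if a = b = 0 trivial; else r = sqrt (a^2+b^2) > 0, θ = arccos (a/r) lies in
[0,π/2], cos θ = a/r, sin θ = sqrt (1-(a/r)^2) = b/r, so a • u + b • v = r • ray u v θ.
general: apply the nonneg case to (u,v), (u,-v), (-u,v), (-u,-v) and |a|, |b|. -/

namespace Vale.Agent.Lib.P084

variable {Y : Type*} [NormedAddCommGroup Y] [NormedSpace ℝ Y]

theorem norm_comb_nonneg (hR : Rhombus Y) (u v : Y) (hu : ‖u‖ = 1) (hv : ‖v‖ = 1)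
    (h1 : ‖u + v‖ ^ 2 = 2) (h2 : ‖u - v‖ ^ 2 = 2) (a b : ℝ) (ha : 0 ≤ a) (hb : 0 ≤ b) :
    ‖a • u + b • v‖ ^ 2 = a ^ 2 + b ^ 2 := by
  by_cases h0 : a ^ 2 + b ^ 2 = 0
  · have ha0 : a = 0 := by nlinarith [sq_nonneg a, sq_nonneg b]
    have hb0 : b = 0 := by nlinarith [sq_nonneg a, sq_nonneg b]
    subst ha0; subst hb0; simp
  · have hpos : 0 < a ^ 2 + b ^ 2 := lt_of_le_of_ne (by positivity) (Ne.symm h0)
    set r := Real.sqrt (a ^ 2 + b ^ 2) with hr
    have hrpos : 0 < r := Real.sqrt_pos.mpr hpos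
    have hr2 : r ^ 2 = a ^ 2 + b ^ 2 := Real.sq_sqrt hpos.le
    have har : a / r ≤ 1 := by
      rw [div_le_one hrpos]
      nlinarith [sq_nonneg b]
    have har0 : 0 ≤ a / r := div_nonneg ha hrpos.le
    set θ := Real.arccos (a / r) with hθ
    have hcos : Real.cos θ = a / r := Real.cos_arccos (by linarith) har
    have hsin : Real.sin θ = b / r := by
      rw [hθ, Real.sin_arccos]
      have : 1 - (a / r) ^ 2 = (b / r) ^ 2 := by
        field_simp
        linarith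
      rw [this, Real.sqrt_sq (div_nonneg hb hrpos.le)]
    have hmem : θ ∈ Set.Icc (0 : ℝ) (Real.pi / 2) :=
      ⟨Real.arccos_nonneg _, Real.arccos_le_pi_div_two.mpr har0⟩
    have hray := norm_ray_quadrant hR u v hu hv h1 h2 θ hmem
    have heq : a • u + b • v = r • ray u v θ := by
      unfold ray
      rw [hcos, hsin, smul_add, smul_smul, smul_smul, mul_div_cancel₀ _ hrpos.ne',
        mul_div_cancel₀ _ hrpos.ne']
    rw [heq, norm_smul, hray, mul_one, Real.norm_eq_abs, sq_abs, hr2]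

theorem norm_comb (hR : Rhombus Y) (u v : Y) (hu : ‖u‖ = 1) (hv : ‖v‖ = 1)
    (h1 : ‖u + v‖ ^ 2 = 2) (h2 : ‖u - v‖ ^ 2 = 2) (a b : ℝ) :
    ‖a • u + b • v‖ ^ 2 = a ^ 2 + b ^ 2 := by
  have hnu : ‖-u‖ = 1 := by rw [norm_neg, hu]
  have hnv : ‖-v‖ = 1 := by rw [norm_neg, hv]
  have e1 : ‖u + -v‖ ^ 2 = 2 := by rw [← sub_eq_add_neg, h2]
  have e2 : ‖u - -v‖ ^ 2 = 2 := by rw [sub_neg_eq_add, h1]
  have e3 : ‖-u + v‖ ^ 2 = 2 := by
    rw [← norm_neg, neg_add, neg_neg, ← sub_eq_add_neg, h2]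
  have e4 : ‖-u - v‖ ^ 2 = 2 := by
    rw [← norm_neg, neg_sub, sub_neg_eq_add, add_comm, h1]
  have e5 : ‖-u + -v‖ ^ 2 = 2 := by
    rw [← neg_add, norm_neg, h1]
  have e6 : ‖-u - -v‖ ^ 2 = 2 := by
    rw [← neg_sub', norm_neg, h2]
  rcases le_total 0 a with ha | ha <;> rcases le_total 0 b with hb | hb
  · exact norm_comb_nonneg hR u v hu hv h1 h2 a b ha hb
  · have := norm_comb_nonneg hR u (-v) hu hnv e1 e2 a (-b) ha (by linarith)
    simpa using this
  · have := norm_comb_nonneg hR (-u) v hnu hv e3 e4 (-a) b (by linarith) hb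
    simpa using this
  · have := norm_comb_nonneg hR (-u) (-v) hnu hnv e5 e6 (-a) (-b) (by linarith) (by linarith)
    simpa using this

end Vale.Agent.Lib.P084
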