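import Mathlib
import Vale.Agent.Lib.P084.Basic
import Vale.Agent.Lib.P084.Antipodal
import Vale.Agent.Lib.P084.Comb

/-! M5.  ROUTE.  u = g x, v = g y are unit, ‖u ± v‖^2 = ‖x ± y‖^2 = 2 (norm_add, dist_eq,
orthogonality).  comb: norm_comb with h.rhombus.  rotate: w = a u + b v has norm 1, so w = g z,
‖z‖ = 1.  ‖z - x‖^2 = ‖w - u‖^2 = (a-1)^2 + b^2 = 2 - 2a gives <z,x> = a; likewise <z,y> = b;
then ‖z - (a x + b y)‖^2 = 1 - 2 (a^2+b^2) + (a^2+b^2) = 0. -/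

namespace Vale.Agent.Lib.P084

variable {X Y : Type*} [NormedAddCommGroup X] [InnerProductSpace ℝ X]
  [NormedAddCommGroup Y] [NormedSpace ℝ Y] {g : X → Y}

theorem SphereIso.comb (h : SphereIso g) {x y : X} (hx : ‖x‖ = 1) (hy : ‖y‖ = 1)
    (hxy : inner ℝ x y = 0) (a b : ℝ) : ‖a • g x + b • g y‖ ^ 2 = a ^ 2 + b ^ 2 := by
  have h1 : ‖g x + g y‖ ^ 2 = 2 := by
    rw [h.norm_add hx hy, norm_add_sq_real, hx, hy, hxy]; norm_num
  have h2 : ‖g x - g y‖ ^ 2 = 2 := by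
    rw [h.dist_eq x y hx hy, norm_sub_sq_real, hx, hy, hxy]; norm_num
  exact norm_comb h.rhombus (g x) (g y) (h.norm_one x hx) (h.norm_one y hy) h1 h2 a b

theorem SphereIso.rotate (h : SphereIso g) {x y : X} (hx : ‖x‖ = 1) (hy : ‖y‖ = 1)
    (hxy : inner ℝ x y = 0) (a b : ℝ) (hab : a ^ 2 + b ^ 2 = 1) :
    g (a • x + b • y) = a • g x + b • g y := by
  have hw2 : ‖a • g x + b • g y‖ ^ 2 = 1 := by rw [h.comb hx hy hxy a b, hab]
  have hw : ‖a • g x + b • g y‖ = 1 := by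
    have h0 : 0 ≤ ‖a • g x + b • g y‖ := norm_nonneg _
    nlinarith
  obtain ⟨z, hz, hgz⟩ := h.surj _ hw
  have hzx : inner ℝ z x = a := by
    have e1 : ‖z - x‖ ^ 2 = (a - 1) ^ 2 + b ^ 2 := by
      rw [← h.dist_eq z x hz hx, hgz, ← h.comb hx hy hxy (a - 1) b]
      congr 2
      rw [sub_smul, one_smul]; abel
    rw [norm_sub_sq_real, hz, hx] at e1
    nlinarith
  have hzy : inner ℝ z y = b := by
    have e1 : ‖z - y‖ ^ 2 = a ^ 2 + (b - 1) ^ 2 := by
      rw [← h.dist_eq z y hz hy, hgz, ← h.comb hx hy hxy a (b - 1)]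
      congr 2
      rw [sub_smul, one_smul]; abel
    rw [norm_sub_sq_real, hz, hy] at e1
    nlinarith
  have hn : ‖a • x + b • y‖ ^ 2 = a ^ 2 + b ^ 2 := by
    rw [norm_add_sq_real, norm_smul, norm_smul, hx, hy, inner_smul_left, inner_smul_right, hxy]
    simp
  have hzero : ‖z - (a • x + b • y)‖ ^ 2 = 0 := by
    rw [norm_sub_sq_real, hz, hn, inner_add_right, inner_smul_right, inner_smul_right, hzx, hzy]
    nlinarith
  have hzeq : z = a • x + b • y := by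
    have : ‖z - (a • x + b • y)‖ = 0 := by simpa using hzero
    exact sub_eq_zero.mp (norm_eq_zero.mp this)
  rw [← hzeq, hgz]

end Vale.Agent.Lib.P084
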