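import Mathlib
import Vale.Agent.Lib.P084.Basic
import Vale.Agent.Lib.P084.Antipodal
import Vale.Agent.Lib.P084.Rotate

/-! M6.  ROUTE.  c = <x,y>, c^2 <= 1.  If c^2 = 1 then ‖y - c x‖^2 = 1 - c^2 = 0, y = c • x with
c = 1 or c = -1, so g y = c • g x (SphereIso.neg) and both sides equal |α - β c|.  Otherwise
s = sqrt (1 - c^2) > 0, y2 = s⁻¹ • (y - c • x) is a unit vector orthogonal to x, y = c • x + s • y2,
g y = c • g x + s • g y2 (rotate), α g x - β g y = (α - β c) • g x + (-(β s)) • g y2, whose squared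
norm is (α - β c)^2 + β^2 s^2 = α^2 - 2 α β c + β^2 = ‖α x - β y‖^2 (comb). -/

namespace Vale.Agent.Lib.P084

variable {X Y : Type*} [NormedAddCommGroup X] [InnerProductSpace ℝ X]
  [NormedAddCommGroup Y] [NormedSpace ℝ Y] {g : X → Y}

theorem SphereIso.norm_smul_sub (h : SphereIso g) {x y : X} (hx : ‖x‖ = 1) (hy : ‖y‖ = 1)
    (α β : ℝ) : ‖α • g x - β • g y‖ = ‖α • x - β • y‖ := by
  obtain ⟨c, hc⟩ : ∃ c : ℝ, c = inner ℝ x y := ⟨_, rfl⟩
  have hxx : inner ℝ x x = 1 := by rw [real_inner_self_eq_norm_sq, hx]; norm_num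
  have hyy : inner ℝ y y = 1 := by rw [real_inner_self_eq_norm_sq, hy]; norm_num
  have hyx : inner ℝ y x = c := by rw [real_inner_comm, hc]
  have hR : ‖α • x - β • y‖ ^ 2 = α ^ 2 - 2 * α * β * c + β ^ 2 := by
    rw [← real_inner_self_eq_norm_sq]
    simp only [inner_sub_left, inner_sub_right, real_inner_smul_left, real_inner_smul_right,
      hxx, hyy, hyx, ← hc]
    ring
  have hD : ‖y - c • x‖ ^ 2 = 1 - c ^ 2 := by
    rw [← real_inner_self_eq_norm_sq]
    simp only [inner_sub_left, inner_sub_right, real_inner_smul_left, real_inner_smul_right,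
      hxx, hyy, hyx, ← hc]
    ring
  have hc2 : c ^ 2 ≤ 1 := by
    have := sq_nonneg ‖y - c • x‖
    linarith
  have key : ‖α • g x - β • g y‖ ^ 2 = α ^ 2 - 2 * α * β * c + β ^ 2 := by
    by_cases h1 : c ^ 2 = 1
    · have hy' : y = c • x := by
        have h0 : ‖y - c • x‖ = 0 := by
          have h00 : ‖y - c • x‖ ^ 2 = 0 := by rw [hD, h1]; ring
          exact (pow_eq_zero_iff two_ne_zero).mp h00
        exact sub_eq_zero.mp (norm_eq_zero.mp h0)
      have hg : g y = c • g x := by
        have hcc : c = 1 ∨ c = -1 := by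
          have h5 : (c - 1) * (c + 1) = 0 := by nlinarith
          rcases mul_eq_zero.mp h5 with h6 | h6
          · left; linarith
          · right; linarith
        rcases hcc with hc1 | hc1
        · rw [hy', hc1, one_smul, one_smul]
        · rw [hy', hc1, neg_one_smul, neg_one_smul, h.neg hx]
      rw [hg, smul_smul, ← sub_smul, norm_smul, h.norm_one x hx, mul_one, Real.norm_eq_abs,
        sq_abs]
      nlinarith
    · have hpos : 0 < 1 - c ^ 2 := by
        rcases lt_or_eq_of_le hc2 with h6 | h6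
        · linarith
        · exact absurd h6 h1
      obtain ⟨s, hs⟩ : ∃ s : ℝ, s = Real.sqrt (1 - c ^ 2) := ⟨_, rfl⟩
      have hs0 : 0 < s := by rw [hs]; exact Real.sqrt_pos.mpr hpos
      have hs2 : s ^ 2 = 1 - c ^ 2 := by rw [hs]; exact Real.sq_sqrt hpos.le
      have hn : ‖y - c • x‖ = s := by
        have h7 : ‖y - c • x‖ ^ 2 = s ^ 2 := by rw [hD, hs2]
        exact (sq_eq_sq₀ (norm_nonneg _) hs0.le).mp h7
      obtain ⟨z, hz⟩ : ∃ z : X, z = s⁻¹ • (y - c • x) := ⟨_, rfl⟩
      have hz1 : ‖z‖ = 1 := by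
        rw [hz, norm_smul, hn, norm_inv, Real.norm_eq_abs, abs_of_pos hs0,
          inv_mul_cancel₀ hs0.ne']
      have hxz : inner ℝ x z = 0 := by
        rw [hz]
        simp only [inner_sub_right, real_inner_smul_right, hxx, ← hc]
        ring
      have hyz : y = c • x + s • z := by
        rw [hz, smul_smul, mul_inv_cancel₀ hs0.ne', one_smul]
        abel
      have hgy : g y = c • g x + s • g z := by
        have h8 := h.rotate hx hz1 hxz c s (by rw [hs2]; ring)
        rw [← hyz] at h8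
        exact h8
      have h9 : α • g x - β • g y = (α - β * c) • g x + (-(β * s)) • g z := by
        rw [hgy, smul_add, smul_smul, smul_smul, sub_smul, neg_smul]
        abel
      rw [h9, h.comb hx hz1 hxz]
      nlinarith
  have h3 : ‖α • g x - β • g y‖ ^ 2 = ‖α • x - β • y‖ ^ 2 := by rw [key, hR]
  exact (sq_eq_sq₀ (norm_nonneg _) (norm_nonneg _)).mp h3

end Vale.Agent.Lib.P084
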