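import Mathlib
import Vale.Agent.Lib.P084.Basic
import Vale.Agent.Lib.P084.Dist

/-! M7.  ROUTE.  F p = ‖p‖ • g (‖p‖⁻¹ • p).  F 0 = 0.  ‖F p - F q‖ = ‖p - q‖ by norm_smul_sub (p, q
nonzero; the cases p = 0 or q = 0 use norm_one).  F is onto: w = 0, or w = ‖w‖ • g x = F (‖w‖ • x)
with g x = ‖w‖⁻¹ • w.  IsometryEquiv.mk' F (Function.surjInv _) _ _ and the Mazur-Ulam theorem
IsometryEquiv.toRealLinearIsometryEquivOfMapZero give T; T x = F x = g x for unit x. -/

namespace Vale.Agent.Lib.P084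

variable {X Y : Type*} [NormedAddCommGroup X] [InnerProductSpace ℝ X]
  [NormedAddCommGroup Y] [NormedSpace ℝ Y] {g : X → Y}

theorem SphereIso.exists_linearIsometryEquiv (h : SphereIso g) :
    ∃ T : X ≃ₗᵢ[ℝ] Y, ∀ x : X, ‖x‖ = 1 → T x = g x := by
  classical
  obtain ⟨F, hFdef⟩ : ∃ F : X → Y, ∀ p, F p = ‖p‖ • g (‖p‖⁻¹ • p) := ⟨_, fun p => rfl⟩
  have hunit : ∀ p : X, p ≠ 0 → ‖‖p‖⁻¹ • p‖ = 1 := by
    intro p hp
    rw [norm_smul, norm_inv, norm_norm, inv_mul_cancel₀ (norm_ne_zero_iff.mpr hp)]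
  have hF0 : F 0 = 0 := by
    rw [hFdef, norm_zero, zero_smul]
  have hnormF : ∀ p, ‖F p‖ = ‖p‖ := by
    intro p
    by_cases hp : p = 0
    · subst hp
      rw [hF0, norm_zero, norm_zero]
    · rw [hFdef, norm_smul, norm_norm, h.norm_one _ (hunit p hp), mul_one]
  have hiso : Isometry F := by
    apply Isometry.of_dist_eq
    intro p q
    rw [dist_eq_norm, dist_eq_norm]
    by_cases hp : p = 0
    · subst hp
      rw [hF0, zero_sub, zero_sub, norm_neg, norm_neg, hnormF]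
    by_cases hq : q = 0
    · subst hq
      rw [hF0, sub_zero, sub_zero, hnormF]
    · have h1 := h.norm_smul_sub (hunit p hp) (hunit q hq) ‖p‖ ‖q‖
      rw [hFdef, hFdef, h1, smul_smul, smul_smul, mul_inv_cancel₀ (norm_ne_zero_iff.mpr hp),
        mul_inv_cancel₀ (norm_ne_zero_iff.mpr hq), one_smul, one_smul]
  have hsurj : Function.Surjective F := by
    intro w
    by_cases hw : w = 0
    · exact ⟨0, by rw [hF0, hw]⟩
    · have hw1 : ‖‖w‖⁻¹ • w‖ = 1 := by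
        rw [norm_smul, norm_inv, norm_norm, inv_mul_cancel₀ (norm_ne_zero_iff.mpr hw)]
      obtain ⟨x, hx, hgx⟩ := h.surj _ hw1
      refine ⟨‖w‖ • x, ?_⟩
      have hn : ‖‖w‖ • x‖ = ‖w‖ := by rw [norm_smul, norm_norm, hx, mul_one]
      rw [hFdef, hn, smul_smul, inv_mul_cancel₀ (norm_ne_zero_iff.mpr hw), one_smul, hgx,
        smul_smul, mul_inv_cancel₀ (norm_ne_zero_iff.mpr hw), one_smul]
  refine ⟨(IsometryEquiv.mk' F (Function.surjInv hsurj) (Function.surjInv_eq hsurj)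
    hiso).toRealLinearIsometryEquivOfMapZero hF0, ?_⟩
  intro x hx
  have h2 : F x = g x := by
    rw [hFdef, hx, inv_one, one_smul, one_smul]
  rw [← h2]
  rfl

end Vale.Agent.Lib.P084
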